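import Mathlib

/-!
General facts on lengths of quotients used for the special cases of the multiplicity inequality
for flat local homomorphisms.
-/

open Module Submodule IsLocalRing

namespace Vale.Agent.P202

section General

variable {S M : Type*} [CommRing S] [AddCommGroup M] [Module S M]

/-- `l(M/J) = l((K+J)/J) + l(M/(J+K))`. -/
lemma length_quot_eq (J K : Submodule S M) :
    Module.length S (M ⧸ J) = Module.length S (K.map J.mkQ) + Module.length S (M ⧸ (J ⊔ K)) := by
  rw [← (Submodule.quotientQuotientEquivQuotientSup J K).length_eq]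
  exact Module.length_eq_add_of_exact (K.map J.mkQ).subtype (K.map J.mkQ).mkQ
    (Submodule.subtype_injective _) (Submodule.mkQ_surjective _) (LinearMap.exact_subtype_mkQ _)

lemma length_map_le {M' : Type*} [AddCommGroup M'] [Module S M'] (f : M →ₗ[S] M')
    (P : Submodule S M) : Module.length S (P.map f) ≤ Module.length S P :=
  Module.length_le_of_surjective (f.submoduleMap P) (f.submoduleMap_surjective P)

lemma length_mono {P Q : Submodule S M} (h : P ≤ Q) : Module.length S P ≤ Module.length S Q :=
  Module.length_le_of_injective (Submodule.inclusion h) (Submodule.inclusion_injective h)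

lemma length_quot_anti {P Q : Submodule S M} (h : P ≤ Q) :
    Module.length S (M ⧸ Q) ≤ Module.length S (M ⧸ P) :=
  Module.length_le_of_surjective (Submodule.factor h) (Submodule.factor_surjective h)

lemma length_sup_le (P Q : Submodule S M) :
    Module.length S ↥(P ⊔ Q) ≤ Module.length S P + Module.length S Q := by
  rw [← Module.length_prod]
  have : P ⊔ Q = LinearMap.range (LinearMap.coprod P.subtype Q.subtype) := by
    rw [LinearMap.range_coprod]; simp
  rw [this]
  exact Module.length_le_of_surjective (LinearMap.coprod P.subtype Q.subtype).rangeRestrict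
    (LinearMap.surjective_rangeRestrict _)

lemma length_finset_sup_le {ι : Type*} (s : Finset ι) (P : ι → Submodule S M) :
    Module.length S ↥(s.sup P) ≤ ∑ i ∈ s, Module.length S (P i) := by
  classical
  induction s using Finset.induction_on with
  | empty => rw [Finset.sup_empty]; simp
  | insert i s hi ih =>
    rw [Finset.sup_insert, Finset.sum_insert hi]
    exact (length_sup_le _ _).trans (by gcongr)

lemma length_sup_of_disjoint {P Q : Submodule S M} (h : Disjoint P Q) :
    Module.length S P + Module.length S Q ≤ Module.length S ↥(P ⊔ Q) := by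
  rw [← Module.length_prod]
  have hr : LinearMap.range (LinearMap.coprod P.subtype Q.subtype) = P ⊔ Q := by
    rw [LinearMap.range_coprod]; simp
  have hinj : Function.Injective (LinearMap.coprod P.subtype Q.subtype) := by
    rw [← LinearMap.ker_eq_bot]
    rw [LinearMap.ker_coprod_of_disjoint_range]
    · simp
    · simpa using h
  rw [← hr]
  exact Module.length_le_of_injective (LinearMap.coprod P.subtype Q.subtype).rangeRestrict
    (by
      intro a b hab
      apply hinj
      have := congrArg Subtype.val hab
      simpa using this)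

lemma sum_length_le_of_supIndep {ι : Type*} (s : Finset ι) (P : ι → Submodule S M)
    (h : s.SupIndep P) :
    ∑ i ∈ s, Module.length S (P i) ≤ Module.length S ↥(s.sup P) := by
  classical
  induction s using Finset.induction_on with
  | empty => simp
  | insert i s hi ih =>
    rw [Finset.sup_insert, Finset.sum_insert hi]
    have h1 : Disjoint (P i) (s.sup P) :=
      h (Finset.subset_insert i s) (Finset.mem_insert_self i s) hi
    refine le_trans ?_ (length_sup_of_disjoint h1)
    gcongr
    exact ih (h.subset (Finset.subset_insert i s))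

end General

section Ideals

variable {S : Type*} [CommRing S]

/-- If `W ≤ K` and `y W ≤ J` then `l(S/J) + l(S/K) ≤ l(S/(J + yK)) + l(S/W)`. -/
lemma length_add_le_of_mul (J K W : Ideal S) (y : S) (hWK : W ≤ K)
    (hy : ∀ w ∈ W, y * w ∈ J) :
    Module.length S (S ⧸ J) + Module.length S (S ⧸ K) ≤
      Module.length S (S ⧸ (J ⊔ Ideal.span {y} * K)) + Module.length S (S ⧸ W) := by
  have h1 := length_quot_eq J (Ideal.span {y} * K)
  have h2 := length_quot_eq W K
  rw [sup_eq_right.mpr hWK] at h2
  let μ : (S ⧸ W) →ₗ[S] (S ⧸ J) := Submodule.mapQ W J (LinearMap.mulLeft S y) (by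
    intro w hw
    exact hy w hw)
  have h3 : Submodule.map J.mkQ (Ideal.span {y} * K) =
      Submodule.map μ (Submodule.map W.mkQ K) := by
    rw [← Submodule.map_comp]
    have : μ ∘ₗ W.mkQ = J.mkQ ∘ₗ (LinearMap.mulLeft S y) := by
      apply LinearMap.ext
      intro x
      rfl
    rw [this, Submodule.map_comp]
    congr 1
    ext x
    simp [Ideal.mem_span_singleton_mul]
  have h4 : Module.length S (Submodule.map J.mkQ (Ideal.span {y} * K)) ≤
      Module.length S (Submodule.map W.mkQ K) := by
    rw [h3]; exact length_map_le _ _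
  calc Module.length S (S ⧸ J) + Module.length S (S ⧸ K)
      = Module.length S (Submodule.map J.mkQ (Ideal.span {y} * K)) +
          Module.length S (S ⧸ (J ⊔ Ideal.span {y} * K)) + Module.length S (S ⧸ K) := by rw [h1]
    _ ≤ Module.length S (Submodule.map W.mkQ K) +
          Module.length S (S ⧸ (J ⊔ Ideal.span {y} * K)) + Module.length S (S ⧸ K) := by gcongr
    _ = Module.length S (S ⧸ (J ⊔ Ideal.span {y} * K)) + Module.length S (S ⧸ W) := by
        rw [h2]; ring

/-- If `K` is generated by a family indexed by `ι` then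
`l(S/cK) ≤ l(S/K) + card ι * l(S/c)`. -/
lemma length_quot_mul_le (c K : Ideal S) {ι : Type*} [Fintype ι] (g : ι → S)
    (hK : K = Ideal.span (Set.range g)) :
    Module.length S (S ⧸ (c * K)) ≤
      Module.length S (S ⧸ K) + (Fintype.card ι) * Module.length S (S ⧸ c) := by
  classical
  have h1 := length_quot_eq (c * K) K
  rw [sup_eq_right.mpr Ideal.mul_le_right] at h1
  have hg : ∀ i, g i ∈ K := fun i => hK ▸ Ideal.subset_span ⟨i, rfl⟩
  let φ : ι → ((S ⧸ c) →ₗ[S] (S ⧸ (c * K))) := fun i =>
    Submodule.mapQ c (c * K) (LinearMap.mulRight S (g i)) (by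
      intro w hw
      exact Ideal.mul_mem_mul hw (hg i))
  let Φ : (ι → (S ⧸ c)) →ₗ[S] (S ⧸ (c * K)) := LinearMap.lsum S (fun _ => S ⧸ c) S φ
  have h2 : Submodule.map (c * K).mkQ K ≤ LinearMap.range Φ := by
    have hK' : (K : Submodule S S) = Submodule.span S (Set.range g) := hK
    rw [Submodule.map_le_iff_le_comap]
    refine le_of_eq_of_le hK' (Submodule.span_le.mpr ?_)
    rintro _ ⟨i, rfl⟩
    refine ⟨Pi.single i (Submodule.Quotient.mk 1), ?_⟩
    have : Φ (Pi.single i (Submodule.Quotient.mk 1)) = φ i (Submodule.Quotient.mk 1) := by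
      simp only [Φ, LinearMap.lsum_apply, LinearMap.sum_apply, LinearMap.comp_apply,
        LinearMap.proj_apply]
      rw [Finset.sum_eq_single i]
      · simp
      · intro j _ hj
        simp [Pi.single_eq_of_ne hj]
      · simp
    rw [this]
    have h5 : φ i (Submodule.Quotient.mk 1) = (c * K).mkQ (1 * g i) := rfl
    rw [h5, one_mul]
  have h3 : Module.length S (LinearMap.range Φ) ≤ (Fintype.card ι) * Module.length S (S ⧸ c) := by
    have := Module.length_le_of_surjective Φ.rangeRestrict (LinearMap.surjective_rangeRestrict _)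
    refine this.trans ?_
    rw [Module.length_pi_of_fintype]
    simp
  rw [h1, add_comm]
  gcongr
  exact (length_mono h2).trans h3

/-- `(I + (y))^(N+1) ≤ I^(N+1) + y (I + (y))^N`. -/
lemma sup_span_pow_succ_le (I : Ideal S) (y : S) (N : ℕ) :
    (I ⊔ Ideal.span {y}) ^ (N + 1) ≤ I ^ (N + 1) ⊔ Ideal.span {y} * (I ⊔ Ideal.span {y}) ^ N := by
  induction N with
  | zero => simp
  | succ N ih =>
    rw [pow_succ]
    refine (Ideal.mul_mono_left ih).trans ?_
    rw [Ideal.sup_mul, Ideal.mul_sup]
    refine sup_le (sup_le ?_ ?_) ?_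
    · rw [← pow_succ]; exact le_sup_left
    · refine le_trans ?_ le_sup_right
      rw [mul_comm]
      exact Ideal.mul_mono_right (Ideal.pow_right_mono le_sup_left _)
    · refine le_trans ?_ le_sup_right
      rw [mul_assoc, ← pow_succ]

end Ideals

section RSide

variable {R : Type*} [CommRing R] [IsLocalRing R]

lemma length_map_mkQ_smul (Q : Ideal R) (hQ : Q.FG) :
    Module.length R (Submodule.map (maximalIdeal R * Q).mkQ Q) = Q.spanFinrank := by
  rw [IsLocalRing.spanFinrank_eq_finrank_quotient Q hQ]
  have : Module.Finite R Q := Module.Finite.iff_fg.mpr hQ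
  have : Module.Finite (R ⧸ maximalIdeal R) (Q ⧸ (maximalIdeal R) • (⊤ : Submodule R Q)) :=
    Module.Finite.of_restrictScalars_finite R _ _
  let _ : Field (R ⧸ maximalIdeal R) := Ideal.Quotient.field (maximalIdeal R)
  have h0 := Module.length_eq_finrank (R ⧸ maximalIdeal R)
    (Q ⧸ (maximalIdeal R) • (⊤ : Submodule R Q))
  rw [← h0, ← Module.length_eq_of_surjective (S := R) (R := R ⧸ maximalIdeal R)
    (Ideal.Quotient.mk_surjective)]
  let g : Q →ₗ[R] (R ⧸ (maximalIdeal R * Q)) := (maximalIdeal R * Q).mkQ ∘ₗ Q.subtype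
  have hr : LinearMap.range g = Submodule.map (maximalIdeal R * Q).mkQ Q := by
    rw [LinearMap.range_comp, Submodule.range_subtype]
  have hk : LinearMap.ker g = (maximalIdeal R) • (⊤ : Submodule R Q) := by
    rw [LinearMap.ker_comp, Submodule.ker_mkQ]
    apply Submodule.map_injective_of_injective Q.subtype_injective
    rw [Submodule.map_comap_eq, Submodule.range_subtype, Submodule.map_smul'', Submodule.map_top,
      Submodule.range_subtype]
    exact inf_eq_right.mpr Ideal.mul_le_right
  rw [← hr, ← hk]
  exact (LinearMap.quotKerEquivRange g).symm.length_eq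

/-- `l(R/m^(N+1)) = l(R/m^N) + mu(m^N)`. -/
lemma length_quot_pow_succ [IsNoetherianRing R] (N : ℕ) :
    Module.length R (R ⧸ maximalIdeal R ^ (N + 1)) =
      Module.length R (R ⧸ maximalIdeal R ^ N) + ((maximalIdeal R ^ N).spanFinrank : ℕ∞) := by
  have h1 := length_quot_eq (maximalIdeal R ^ (N + 1)) (maximalIdeal R ^ N)
  rw [sup_eq_right.mpr (Ideal.pow_le_pow_right (Nat.le_succ N))] at h1
  have h2 := length_map_mkQ_smul (maximalIdeal R ^ N) (IsNoetherian.noetherian _)
  rw [← pow_succ'] at h2
  rw [h1, h2, add_comm]

lemma length_quot_pow_ne_top [IsNoetherianRing R] (N : ℕ) :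
    Module.length R (R ⧸ maximalIdeal R ^ N) ≠ ⊤ := by
  induction N with
  | zero =>
    have : Subsingleton (R ⧸ maximalIdeal R ^ 0) := by
      rw [pow_zero, Ideal.one_eq_top]
      exact Ideal.Quotient.subsingleton_iff.mpr rfl
    rw [Module.length_eq_zero]
    simp
  | succ N ih =>
    rw [length_quot_pow_succ]
    exact WithTop.add_ne_top.mpr ⟨ih, ENat.natCast_ne_top _⟩

end RSide

end Vale.Agent.P202
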