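import Mathlib
import Vale.Agent.P202.Length

/-!
Flat local homomorphisms: length of `S/m^N S`, and the one-element comparison.
-/

open Module Submodule IsLocalRing

namespace Vale.Agent.P202

variable {R S : Type*} [CommRing R] [CommRing S] [IsLocalRing R] [IsLocalRing S]
  [Algebra R S] [IsLocalHom (algebraMap R S)]

variable (R S) in
/-- The extension `mS` of the maximal ideal of `R` to `S`. -/
abbrev mS : Ideal S := (maximalIdeal R).map (algebraMap R S)

/-- `l_S(S/m^N S) = l_R(R/m^N) l_S(S/mS)` for flat local homomorphisms. -/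
lemma length_quot_mS_pow [Module.Flat R S] (N : ℕ) :
    Module.length S (S ⧸ (mS R S) ^ N) =
      Module.length R (R ⧸ maximalIdeal R ^ N) * Module.length S (S ⧸ mS R S) := by
  rw [← IsLocalRing.length_baseChange R S (R ⧸ maximalIdeal R ^ N), ← Ideal.map_pow]
  exact (Algebra.TensorProduct.quotIdealMapEquivTensorQuot S
    (maximalIdeal R ^ N)).toLinearEquiv.length_eq

lemma length_quot_mS_pow_ne_top [Module.Flat R S] [IsNoetherianRing R]
    (hfin : Module.length S (S ⧸ mS R S) ≠ ⊤) (N : ℕ) :
    Module.length S (S ⧸ (mS R S) ^ N) ≠ ⊤ := by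
  rw [length_quot_mS_pow]
  exact WithTop.mul_ne_top (length_quot_pow_ne_top N) hfin

omit [IsLocalRing S] [IsLocalHom (algebraMap R S)] in
/-- `l(S/c (mS)^N) ≤ l(S/(mS)^N) + mu(m^N) l(S/c)`. -/
lemma length_quot_mul_mS_pow_le [IsNoetherianRing R] (c : Ideal S) (N : ℕ) :
    Module.length S (S ⧸ (c * (mS R S) ^ N)) ≤
      Module.length S (S ⧸ (mS R S) ^ N) +
        ((maximalIdeal R ^ N).spanFinrank : ℕ∞) * Module.length S (S ⧸ c) := by
  obtain ⟨s, hs1, hs2⟩ := Submodule.FG.exists_span_finset_card_eq_spanFinrank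
    (IsNoetherian.noetherian (maximalIdeal R ^ N))
  have hK : (mS R S) ^ N = Ideal.span (Set.range (fun x : s => algebraMap R S x)) := by
    rw [← Ideal.map_pow]
    have : maximalIdeal R ^ N = Ideal.span (s : Set R) := hs2.symm
    rw [this, Ideal.map_span]
    congr 1
    ext z
    simp
  have := length_quot_mul_le c ((mS R S) ^ N) (fun x : s => algebraMap R S x) hK
  rw [Fintype.card_coe, hs1] at this
  exact this

/-- One-element comparison: if `y c ≤ mS` then
`l(S/(mS)^N) ≤ l(S/(mS + (y))^N) + l(S/c) l(R/m^N)`. -/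
lemma length_quot_mS_pow_le [Module.Flat R S] [IsNoetherianRing R]
    (hfin : Module.length S (S ⧸ mS R S) ≠ ⊤)
    (y : S) (c : Ideal S) (hc : ∀ w ∈ c, y * w ∈ mS R S) (N : ℕ) :
    Module.length S (S ⧸ (mS R S) ^ N) ≤
      Module.length S (S ⧸ (mS R S ⊔ Ideal.span {y}) ^ N) +
        Module.length S (S ⧸ c) * Module.length R (R ⧸ maximalIdeal R ^ N) := by
  induction N with
  | zero =>
    have : Subsingleton (S ⧸ (mS R S) ^ 0) := by
      rw [pow_zero, Ideal.one_eq_top]
      exact Ideal.Quotient.subsingleton_iff.mpr rfl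
    rw [Module.length_eq_zero]
    exact zero_le
  | succ N ih =>
    set I := mS R S with hI
    set q := I ⊔ Ideal.span {y} with hq
    have hIq : I ^ N ≤ q ^ N := Ideal.pow_right_mono le_sup_left N
    have h1 := length_add_le_of_mul (I ^ (N + 1)) (q ^ N) (c * I ^ N) y
      (Ideal.mul_le_right.trans hIq) (by
        intro w hw
        have h : Ideal.span {y} * (c * I ^ N) ≤ I ^ (N + 1) := by
          rw [← mul_assoc, pow_succ']
          apply Ideal.mul_mono_left
          rw [Ideal.span_singleton_mul_le_iff]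
          exact hc
        exact h (Ideal.mul_mem_mul (Ideal.mem_span_singleton_self y) hw))
    have h2 : Module.length S (S ⧸ (I ^ (N + 1) ⊔ Ideal.span {y} * q ^ N)) ≤
        Module.length S (S ⧸ q ^ (N + 1)) :=
      length_quot_anti (sup_span_pow_succ_le I y N)
    have h3 := length_quot_mul_mS_pow_le (R := R) (S := S) c N
    have h4 := length_quot_pow_succ (R := R) N
    have hfq : Module.length S (S ⧸ q ^ N) ≠ ⊤ :=
      ne_top_of_le_ne_top (length_quot_mS_pow_ne_top hfin N) (length_quot_anti hIq)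
    rw [← ENat.add_le_add_iff_right hfq]
    calc Module.length S (S ⧸ I ^ (N + 1)) + Module.length S (S ⧸ q ^ N)
        ≤ Module.length S (S ⧸ (I ^ (N + 1) ⊔ Ideal.span {y} * q ^ N)) +
            Module.length S (S ⧸ (c * I ^ N)) := h1
      _ ≤ Module.length S (S ⧸ q ^ (N + 1)) + (Module.length S (S ⧸ I ^ N) +
            ((maximalIdeal R ^ N).spanFinrank : ℕ∞) * Module.length S (S ⧸ c)) := by gcongr
      _ ≤ Module.length S (S ⧸ q ^ (N + 1)) + ((Module.length S (S ⧸ q ^ N) +
            Module.length S (S ⧸ c) * Module.length R (R ⧸ maximalIdeal R ^ N)) +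
            ((maximalIdeal R ^ N).spanFinrank : ℕ∞) * Module.length S (S ⧸ c)) := by gcongr
      _ = Module.length S (S ⧸ q ^ (N + 1)) +
            Module.length S (S ⧸ c) * Module.length R (R ⧸ maximalIdeal R ^ (N + 1)) +
            Module.length S (S ⧸ q ^ N) := by rw [h4]; ring

end Vale.Agent.P202
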