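import Mathlib
import Vale.Agent.P202.Flat

/-!
Consequences of the equational criterion of flatness for the ideal `mS`.
-/

open Module Submodule IsLocalRing

namespace Vale.Agent.P202

section Minimal

variable {R : Type*} [CommRing R] [IsLocalRing R]

/-- Coefficients of a relation between minimal generators of the maximal ideal lie in the
maximal ideal. -/
lemma coeff_mem_of_relation (s : Finset R) (hcard : s.card = (maximalIdeal R).spanFinrank)
    (hspan : Submodule.span R (s : Set R) = maximalIdeal R)
    (c : s → R) (hrel : ∑ x : s, (x : R) * c x = 0) (x0 : s) : c x0 ∈ maximalIdeal R := by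
  classical
  by_contra hx0
  have hu : IsUnit (c x0) := by
    by_contra h
    exact hx0 ((IsLocalRing.mem_maximalIdeal _).mpr h)
  obtain ⟨u, hu⟩ := hu
  -- x0 lies in the span of the others
  have hmem : (x0 : R) ∈ Submodule.span R ((s.erase x0 : Finset R) : Set R) := by
    have h1 : (x0 : R) * c x0 = - ∑ x ∈ Finset.univ.erase x0, (x : R) * c x := by
      rw [← Finset.add_sum_erase Finset.univ _ (Finset.mem_univ x0)] at hrel
      exact eq_neg_of_add_eq_zero_left hrel
    have h2 : (x0 : R) = (↑u⁻¹ : R) * ((x0 : R) * c x0) := by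
      rw [← hu]
      have : (↑u⁻¹ : R) * ((x0 : R) * ↑u) = (x0 : R) * (↑u⁻¹ * ↑u) := by ring
      rw [this, Units.inv_mul, mul_one]
    have h3 : (↑u⁻¹ : R) * (- ∑ x ∈ Finset.univ.erase x0, (x : R) * c x) ∈
        Submodule.span R ((s.erase x0 : Finset R) : Set R) := by
      apply Submodule.smul_mem
      apply Submodule.neg_mem
      apply Submodule.sum_mem
      intro x hx
      have h4 : (x : R) * c x = c x • (x : R) := by rw [smul_eq_mul, mul_comm]
      rw [h4]
      apply Submodule.smul_mem
      apply Submodule.subset_span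
      simp only [Finset.coe_erase, Set.mem_sdiff, Finset.mem_coe, Set.mem_singleton_iff]
      refine ⟨x.2, ?_⟩
      intro h
      exact (Finset.ne_of_mem_erase hx) (Subtype.ext h)
    rw [← h1, ← h2] at h3
    exact h3
  have hspan' : Submodule.span R ((s.erase x0 : Finset R) : Set R) = maximalIdeal R := by
    apply le_antisymm
    · rw [← hspan]
      apply Submodule.span_mono
      exact Finset.coe_subset.mpr (Finset.erase_subset _ _)
    · rw [← hspan, Submodule.span_le]
      intro x hx
      by_cases h : x = x0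
      · rw [h]; exact hmem
      · apply Submodule.subset_span
        simp only [Finset.coe_erase, Set.mem_sdiff, Set.mem_singleton_iff]
        exact ⟨hx, h⟩
  have h3 : (maximalIdeal R).spanFinrank ≤ (s.erase x0).card := by
    have := Submodule.spanFinrank_span_le_ncard_of_finite (R := R)
      (s := ((s.erase x0 : Finset R) : Set R)) (Finset.finite_toSet _)
    rw [hspan', Set.ncard_coe_finset] at this
    exact this
  rw [Finset.card_erase_of_mem x0.2, ← hcard] at h3
  have : 0 < s.card := Finset.card_pos.mpr ⟨x0, x0.2⟩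
  omega

end Minimal

variable {R S : Type*} [CommRing R] [CommRing S] [IsLocalRing R] [IsLocalRing S]
  [Algebra R S] [IsLocalHom (algebraMap R S)]

omit [IsLocalRing S] [IsLocalHom (algebraMap R S)] in
/-- For a flat `R`-algebra `S`, the coefficients of any `S`-relation between minimal generators
of `m` lie in `mS`. -/
lemma coeff_mem_mS_of_relation [Module.Flat R S] (s : Finset R)
    (hcard : s.card = (maximalIdeal R).spanFinrank)
    (hspan : Submodule.span R (s : Set R) = maximalIdeal R)
    (σ : s → S) (hrel : ∑ x : s, (x : R) • σ x = 0) (x0 : s) : σ x0 ∈ mS R S := by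
  obtain ⟨k, a, y, h1, h2⟩ := Module.Flat.isTrivialRelation_of_sum_smul_eq_zero (R := R) (M := S)
    (f := fun x : s => (x : R)) (x := σ) hrel
  rw [h1 x0]
  apply Ideal.sum_mem
  intro j _
  rw [Algebra.smul_def]
  apply Ideal.mul_mem_right
  apply Ideal.mem_map_of_mem
  exact coeff_mem_of_relation s hcard hspan (fun x => a x j) (h2 j) x0

omit [IsLocalHom (algebraMap R S)] in
/-- Key lemma: if `z ∈ mS`, `z ∉ n mS` and `w z ∈ b mS`, then `w ∈ mS + (b)`. -/
lemma mem_sup_span_of_mul_mem [Module.Flat R S] [IsNoetherianRing R] (z w b : S)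
    (hz : z ∈ mS R S) (hz' : z ∉ maximalIdeal S * mS R S)
    (hw : w * z ∈ Ideal.span {b} * mS R S) : w ∈ mS R S ⊔ Ideal.span {b} := by
  classical
  obtain ⟨s, hcard, hspan⟩ := Submodule.FG.exists_span_finset_card_eq_spanFinrank
    (IsNoetherian.noetherian (maximalIdeal R))
  have hI : (mS R S : Submodule S S) =
      Submodule.span S (Set.range (fun x : s => algebraMap R S x)) := by
    have : maximalIdeal R = Ideal.span (s : Set R) := hspan.symm
    change Ideal.map (algebraMap R S) (maximalIdeal R) = _
    rw [this, Ideal.map_span]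
    congr 1
    ext z
    simp
  have hv : ∀ x : s, algebraMap R S x ∈ mS R S := fun x =>
    Ideal.mem_map_of_mem _ (hspan ▸ Submodule.subset_span x.2)
  have hrep : ∀ u ∈ mS R S, ∃ σ : s → S, ∑ x : s, σ x * algebraMap R S x = u := by
    intro u hu
    have hu' : u ∈ Submodule.span S (Set.range (fun x : s => algebraMap R S x)) := hI ▸ hu
    obtain ⟨σ, hσ⟩ := (Submodule.mem_span_range_iff_exists_fun S).mp hu'
    exact ⟨σ, by simpa using hσ⟩
  obtain ⟨σ, hσ⟩ := hrep z hz
  obtain ⟨u, hu, hwu⟩ := Ideal.mem_span_singleton_mul.mp hw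
  obtain ⟨τ, hτ⟩ := hrep u hu
  -- some coefficient of z is a unit
  have hex : ∃ x0 : s, σ x0 ∉ maximalIdeal S := by
    by_contra hcon
    push Not at hcon
    apply hz'
    rw [← hσ]
    apply Ideal.sum_mem
    intro x _
    exact Ideal.mul_mem_mul (hcon x) (hv x)
  obtain ⟨x0, hx0⟩ := hex
  have hrel : ∑ x : s, (x : R) • (w * σ x - b * τ x) = 0 := by
    have h1 : ∑ x : s, (x : R) • (w * σ x - b * τ x) =
        w * ∑ x : s, σ x * algebraMap R S x - b * ∑ x : s, τ x * algebraMap R S x := by
      rw [Finset.mul_sum, Finset.mul_sum, ← Finset.sum_sub_distrib]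
      apply Finset.sum_congr rfl
      intro x _
      rw [Algebra.smul_def]
      ring
    rw [h1, hσ, hτ, hwu, sub_self]
  have hmem := coeff_mem_mS_of_relation s hcard hspan _ hrel x0
  have hunit : IsUnit (σ x0) := by
    by_contra h
    exact hx0 ((IsLocalRing.mem_maximalIdeal _).mpr h)
  have h2 : w * σ x0 ∈ mS R S ⊔ Ideal.span {b} := by
    have : w * σ x0 = (w * σ x0 - b * τ x0) + b * τ x0 := by ring
    rw [this]
    apply Ideal.add_mem
    · exact Ideal.mem_sup_left hmem
    · exact Ideal.mem_sup_right (Ideal.mul_mem_right _ _ (Ideal.mem_span_singleton_self b))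
  exact (Ideal.mul_unit_mem_iff_mem _ hunit).mp h2

end Vale.Agent.P202
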