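import Mathlib
import Vale.Agent.P202.Syzygy

/-!
Closed fibres whose maximal ideal is a direct sum of principal ideals.
-/

open Module Submodule IsLocalRing

namespace Vale.Agent.P202

variable {R S : Type*} [CommRing R] [CommRing S] [IsLocalRing R] [IsLocalRing S]
  [Algebra R S] [IsLocalHom (algebraMap R S)]

lemma mS_le_maximalIdeal : mS R S ≤ maximalIdeal S :=
  IsLocalRing.map_maximalIdeal_le (algebraMap R S)

/-- If the principal ideals generated by `a` and `b` in the artinian closed fibre meet in zero,
then `a b ∈ n mS`. -/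
lemma mul_mem_of_disjoint [Module.Flat R S] [IsNoetherianRing R]
    [IsArtinianRing (S ⧸ mS R S)] (a b : S) (ha : a ∈ maximalIdeal S) (hb : b ∈ maximalIdeal S)
    (hdisj : ∀ u, u ∈ mS R S ⊔ Ideal.span {a} → u ∈ mS R S ⊔ Ideal.span {b} → u ∈ mS R S) :
    a * b ∈ maximalIdeal S * mS R S := by
  classical
  by_contra h
  have hz : a * b ∈ mS R S := hdisj _
    (Ideal.mem_sup_right (Ideal.mul_mem_right _ _ (Ideal.mem_span_singleton_self a)))
    (Ideal.mem_sup_right (Ideal.mul_mem_left _ _ (Ideal.mem_span_singleton_self b)))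
  obtain ⟨e, he⟩ := IsLocalRing.exists_maximalIdeal_pow_le_of_isArtinianRing_quotient (mS R S)
  have hex : ∃ e, a ^ e ∈ mS R S := ⟨e, he (Ideal.pow_mem_pow ha e)⟩
  have hmin : ∀ k, k < Nat.find hex → a ^ k ∉ mS R S := fun k hk => Nat.find_min hex hk
  have hspec := Nat.find_spec hex
  set e0 := Nat.find hex with he0
  have hne : (1 : S) ∉ mS R S := fun h1 =>
    (Ideal.ne_top_iff_one _).mp (IsLocalRing.maximalIdeal.isMaximal S).ne_top
      (mS_le_maximalIdeal h1)
  rcases Nat.exists_eq_succ_of_ne_zero (n := e0) (by
    intro h0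
    rw [h0, pow_zero] at hspec
    exact hne hspec) with ⟨e1, he1⟩
  have hw : a ^ e1 ∉ mS R S := hmin e1 (by omega)
  rcases Nat.eq_zero_or_pos e1 with h0 | hpos
  · -- a ∈ mS
    rw [he1, h0] at hspec
    simp only [Nat.succ_eq_add_one, zero_add, pow_one] at hspec
    apply h
    rw [mul_comm a b]
    exact Ideal.mul_mem_mul hb hspec
  · apply hw
    apply hdisj
    · apply Ideal.mem_sup_right
      obtain ⟨e2, rfl⟩ : ∃ e2, e1 = e2 + 1 := ⟨e1 - 1, by omega⟩
      rw [pow_succ]
      exact Ideal.mul_mem_left _ _ (Ideal.mem_span_singleton_self a)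
    · apply mem_sup_span_of_mul_mem (R := R) (a * b) (a ^ e1) b hz h
      have : a ^ e1 * (a * b) = b * a ^ e0 := by
        rw [he1, Nat.succ_eq_add_one, pow_succ]; ring
      rw [this]
      exact Ideal.mul_mem_mul (Ideal.mem_span_singleton_self b) hspec

section Powers

variable {ι : Type*} (I n : Ideal S) (y : ι → S)

/-- The ideal `I^N + ∑ (I + (y i))^N`. -/
abbrev sumPow (N : ℕ) : Ideal S := I ^ N ⊔ ⨆ i, (I ⊔ Ideal.span {y i}) ^ N

omit [IsLocalRing S] in
lemma sumPow_mul_le (N : ℕ) : sumPow I y N * I ≤ sumPow I y (N + 1) := by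
  rw [sumPow, Ideal.sup_mul, Ideal.iSup_mul]
  refine sup_le ?_ (iSup_le fun i => ?_)
  · rw [← pow_succ]; exact le_sup_left
  · refine le_trans ?_ (le_trans (le_iSup (fun i => (I ⊔ Ideal.span {y i}) ^ (N + 1)) i)
      le_sup_right)
    rw [pow_succ]
    exact Ideal.mul_mono_right le_sup_left

omit [IsLocalRing S] in
lemma pow_le_sumPow (hI : I ≤ n) (hgen : n = I ⊔ Ideal.span (Set.range y))
    (hmul : ∀ i j, i ≠ j → y i * y j ∈ n * I) (N : ℕ) : n ^ N ≤ sumPow I y N := by
  have hyn : ∀ i, Ideal.span {y i} ≤ n := fun i => by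
    rw [Ideal.span_singleton_le_iff_mem, hgen]
    exact Ideal.mem_sup_right (Ideal.subset_span ⟨i, rfl⟩)
  have hqn : ∀ i, I ⊔ Ideal.span {y i} ≤ n := fun i => sup_le hI (hyn i)
  have hle : ∀ (N : ℕ) (j : ι), (I ⊔ Ideal.span {y j}) ^ N ≤ sumPow I y N := fun N j =>
    le_trans (le_iSup (fun i => (I ⊔ Ideal.span {y i}) ^ N) j) le_sup_right
  induction N with
  | zero => simp [sumPow]
  | succ N ih =>
    have hn : n = I ⊔ ⨆ j, Ideal.span {y j} := by
      rw [hgen]
      congr 1
      rw [← Set.iUnion_singleton_eq_range, Ideal.span_iUnion]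
    calc n ^ (N + 1) = n ^ N * n := pow_succ _ _
      _ ≤ sumPow I y N * n := Ideal.mul_mono_left ih
      _ = sumPow I y N * I ⊔ ⨆ j, sumPow I y N * Ideal.span {y j} := by
          conv_lhs => rw [hn]
          rw [Ideal.mul_sup, Ideal.mul_iSup]
      _ ≤ sumPow I y (N + 1) := by
          refine sup_le (sumPow_mul_le I y N) (iSup_le fun j => ?_)
          rw [sumPow, Ideal.sup_mul, Ideal.iSup_mul]
          refine sup_le ?_ (iSup_le fun i => ?_)
          · refine le_trans ?_ (hle (N + 1) j)
            rw [pow_succ]
            exact Ideal.mul_mono (Ideal.pow_right_mono le_sup_left N) le_sup_right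
          · by_cases hij : i = j
            · subst hij
              refine le_trans ?_ (hle (N + 1) i)
              rw [pow_succ]
              exact Ideal.mul_mono_right le_sup_right
            · cases N with
              | zero =>
                refine le_trans ?_ (hle (0 + 1) j)
                simp
              | succ N' =>
                refine le_trans (Ideal.mul_mono_left (sup_span_pow_succ_le I (y i) N')) ?_
                rw [Ideal.sup_mul]
                refine sup_le ?_ ?_
                · refine le_trans ?_ (hle (N' + 1 + 1) j)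
                  rw [pow_succ _ (N' + 1)]
                  exact Ideal.mul_mono (Ideal.pow_right_mono le_sup_left _) le_sup_right
                · have h1 : Ideal.span {y i} * (I ⊔ Ideal.span {y i}) ^ N' * Ideal.span {y j} =
                      Ideal.span {y i * y j} * (I ⊔ Ideal.span {y i}) ^ N' := by
                    rw [← Ideal.span_singleton_mul_span_singleton]; ring
                  rw [h1]
                  have h2 : Ideal.span {y i * y j} ≤ n * I :=
                    (Ideal.span_singleton_le_iff_mem _).mpr (hmul i j hij)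
                  have h3 : Ideal.span {y i * y j} * (I ⊔ Ideal.span {y i}) ^ N' ≤
                      n ^ (N' + 1) * I := by
                    refine le_trans (Ideal.mul_mono h2 (Ideal.pow_right_mono (hqn i) N')) ?_
                    rw [pow_succ]
                    apply le_of_eq
                    ring
                  exact h3.trans ((Ideal.mul_mono_left ih).trans (sumPow_mul_le I y (N' + 1)))

end Powers

end Vale.Agent.P202
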