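import Mathlib

namespace Vale.Agent.P202

open IsLocalRing

/-- `e` is the Hilbert-Samuel multiplicity of the local ring `A`: with `d = dim A` (Krull
dimension), the sequence `d! * length_A (A / m^N) / N^d` tends to `e` as `N` tends to infinity. -/
def IsHilbertSamuelMultiplicity (A : Type*) [CommRing A] [IsLocalRing A] (e : ℝ) : Prop :=
  ∃ d : ℕ, ringKrullDim A = d ∧
    Filter.Tendsto (fun N : ℕ => (d.factorial : ℝ) *
      ((Module.length A (A ⧸ maximalIdeal A ^ N)).toNat : ℝ) / (N : ℝ) ^ d)
      Filter.atTop (nhds e)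

end Vale.Agent.P202
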