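import Mathlib
import Vale.Agent.P202.Length

/-!
Extension of a filtration `F` by an element `z` placed in weight `w`, iterated extensions, and the
comparison of colengths.
-/

open Module Submodule

namespace Vale.Agent.P202

variable {S : Type*} [CommRing S]

/-- The filtration generated by the filtration `F` and the element `z` placed in weight `w`. -/
def extFil (F : ℕ → Ideal S) (z : S) (w : ℕ) (N : ℕ) : Ideal S :=
  ⨆ i : ℕ, Ideal.span {z ^ i} * F (N - w * i)

/-- Multiplication by `a` raises the filtration degree by `v`. -/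
def HasWeight (F : ℕ → Ideal S) (a : S) (v : ℕ) : Prop :=
  ∀ N, ∀ x ∈ F N, a * x ∈ F (N + v)

lemma le_extFil (F : ℕ → Ideal S) (z : S) (w N : ℕ) : F N ≤ extFil F z w N := by
  refine le_trans ?_ (le_iSup (fun i : ℕ => Ideal.span {z ^ i} * F (N - w * i)) 0)
  simp

lemma extFil_le (F : ℕ → Ideal S) (z : S) (w N : ℕ) :
    extFil F z w N ≤ F N ⊔ Ideal.span {z} * extFil F z w (N - w) := by
  refine iSup_le fun i => ?_
  cases i with
  | zero => simp
  | succ i =>
    refine le_trans ?_ le_sup_right
    have h1 : Ideal.span {z ^ (i + 1)} * F (N - w * (i + 1)) =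
        Ideal.span {z} * (Ideal.span {z ^ i} * F (N - w - w * i)) := by
      rw [← mul_assoc, Ideal.span_singleton_mul_span_singleton, ← pow_succ']
      congr 2
      rw [Nat.mul_succ]
      omega
    rw [h1]
    exact Ideal.mul_mono_right
      (le_iSup (fun i : ℕ => Ideal.span {z ^ i} * F (N - w - w * i)) i)

lemma extFil_anti {F : ℕ → Ideal S} (hF : Antitone F) (z : S) (w : ℕ) :
    Antitone (extFil F z w) := by
  intro M N h
  refine iSup_le fun i => ?_
  refine le_trans ?_ (le_iSup (fun i : ℕ => Ideal.span {z ^ i} * F (M - w * i)) i)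
  exact Ideal.mul_mono_right (hF (by omega))

lemma hasWeight_iff (F : ℕ → Ideal S) (a : S) (v : ℕ) :
    HasWeight F a v ↔ ∀ N, Ideal.span {a} * F N ≤ F (N + v) := by
  constructor
  · intro h N
    rw [Ideal.span_singleton_mul_le_iff]
    exact h N
  · intro h N x hx
    exact h N (Ideal.mul_mem_mul (Ideal.mem_span_singleton_self a) hx)

lemma HasWeight.extFil {F : ℕ → Ideal S} (hF : Antitone F) {a : S} {v : ℕ}
    (h : HasWeight F a v) (z : S) (w : ℕ) : HasWeight (extFil F z w) a v := by
  rw [hasWeight_iff] at h ⊢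
  intro N
  unfold Vale.Agent.P202.extFil
  rw [Ideal.mul_iSup]
  refine iSup_le fun i => ?_
  refine le_trans ?_ (le_iSup (fun i : ℕ => Ideal.span {z ^ i} * F (N + v - w * i)) i)
  rw [← mul_assoc, mul_comm (Ideal.span {a}), mul_assoc]
  exact Ideal.mul_mono_right ((h _).trans (hF (by omega)))

lemma hasWeight_extFil_self (F : ℕ → Ideal S) (z : S) (w : ℕ) :
    HasWeight (extFil F z w) z w := by
  rw [hasWeight_iff]
  intro N
  unfold extFil
  rw [Ideal.mul_iSup]
  refine iSup_le fun i => ?_
  refine le_trans ?_ (le_iSup (fun i : ℕ => Ideal.span {z ^ i} * F (N + w - w * i)) (i + 1))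
  rw [← mul_assoc, Ideal.span_singleton_mul_span_singleton, ← pow_succ']
  have : N + w - w * (i + 1) = N - w * i := by
    rw [Nat.mul_succ]; omega
  rw [this]

/-- `l(S/F_N) ≤ ∑_{j<w} l(S/G_{N-j})` for the extension `G` of `F` by `z` in weight `w ≥ 1`,
when `z` has weight one for `F`. -/
lemma length_quot_le_sum_extFil {F : ℕ → Ideal S} (hF : Antitone F) (hF0 : F 0 = ⊤) (z : S)
    (hz : HasWeight F z 1) (w : ℕ) (hw : 1 ≤ w)
    (hfin : ∀ N, Module.length S (S ⧸ F N) ≠ ⊤) (N : ℕ) :
    Module.length S (S ⧸ F N) ≤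
      ∑ j ∈ Finset.range w, Module.length S (S ⧸ extFil F z w (N - j)) := by
  induction N with
  | zero =>
    have : Subsingleton (S ⧸ F 0) := by
      rw [hF0]
      exact Ideal.Quotient.subsingleton_iff.mpr rfl
    rw [Module.length_eq_zero]
    exact zero_le
  | succ N ih =>
    have h1 := length_add_le_of_mul (F (N + 1)) (extFil F z w (N + 1 - w)) (F N) z
      (le_trans (hF (by omega)) (le_extFil F z w (N + 1 - w))) (hz N)
    have h2 : Module.length S (S ⧸ (F (N + 1) ⊔ Ideal.span {z} * extFil F z w (N + 1 - w))) ≤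
        Module.length S (S ⧸ extFil F z w (N + 1)) := length_quot_anti (extFil_le F z w (N + 1))
    have hfu : Module.length S (S ⧸ extFil F z w (N + 1 - w)) ≠ ⊤ :=
      ne_top_of_le_ne_top (hfin (N + 1 - w)) (length_quot_anti (le_extFil F z w (N + 1 - w)))
    have h3 : ∑ j ∈ Finset.range w, Module.length S (S ⧸ extFil F z w (N - j)) +
        Module.length S (S ⧸ extFil F z w (N + 1)) =
        ∑ j ∈ Finset.range w, Module.length S (S ⧸ extFil F z w (N + 1 - j)) +
        Module.length S (S ⧸ extFil F z w (N + 1 - w)) := by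
      rw [← Finset.sum_range_succ (fun j => Module.length S (S ⧸ extFil F z w (N + 1 - j))) w,
        Finset.sum_range_succ' (fun j => Module.length S (S ⧸ extFil F z w (N + 1 - j))) w]
      simp only [Nat.sub_zero]
      congr 1
      refine Finset.sum_congr rfl fun j _ => ?_
      rw [Nat.add_sub_add_right]
    rw [← ENat.add_le_add_iff_right hfu]
    calc Module.length S (S ⧸ F (N + 1)) + Module.length S (S ⧸ extFil F z w (N + 1 - w))
        ≤ Module.length S (S ⧸ (F (N + 1) ⊔ Ideal.span {z} * extFil F z w (N + 1 - w))) +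
            Module.length S (S ⧸ F N) := h1
      _ ≤ Module.length S (S ⧸ extFil F z w (N + 1)) +
            ∑ j ∈ Finset.range w, Module.length S (S ⧸ extFil F z w (N - j)) := by gcongr
      _ = ∑ j ∈ Finset.range w, Module.length S (S ⧸ extFil F z w (N + 1 - j)) +
            Module.length S (S ⧸ extFil F z w (N + 1 - w)) := by rw [add_comm, h3]

/-- `l(S/F_N) ≤ w * l(S/G_N)`. -/
lemma length_quot_le_mul_extFil {F : ℕ → Ideal S} (hF : Antitone F) (hF0 : F 0 = ⊤) (z : S)
    (hz : HasWeight F z 1) (w : ℕ) (hw : 1 ≤ w)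
    (hfin : ∀ N, Module.length S (S ⧸ F N) ≠ ⊤) (N : ℕ) :
    Module.length S (S ⧸ F N) ≤ w * Module.length S (S ⧸ extFil F z w N) := by
  refine (length_quot_le_sum_extFil hF hF0 z hz w hw hfin N).trans ?_
  calc ∑ j ∈ Finset.range w, Module.length S (S ⧸ extFil F z w (N - j))
      ≤ ∑ _j ∈ Finset.range w, Module.length S (S ⧸ extFil F z w N) :=
        Finset.sum_le_sum fun j _ => length_quot_anti (extFil_anti hF z w (Nat.sub_le N j))
    _ = w * Module.length S (S ⧸ extFil F z w N) := by simp

/-- The filtration generated by `q` in weight one and `z 0, ..., z (j-1)` in weights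
`w 0, ..., w (j-1)`. -/
def iterFil (q : Ideal S) (z : ℕ → S) (w : ℕ → ℕ) : ℕ → ℕ → Ideal S
  | 0 => fun N => q ^ N
  | j + 1 => extFil (iterFil q z w j) (z j) (w j)

lemma iterFil_anti (q : Ideal S) (z : ℕ → S) (w : ℕ → ℕ) (j : ℕ) :
    Antitone (iterFil q z w j) := by
  induction j with
  | zero => intro M N h; exact Ideal.pow_le_pow_right h
  | succ j ih => exact extFil_anti ih _ _

lemma pow_le_iterFil (q : Ideal S) (z : ℕ → S) (w : ℕ → ℕ) (j N : ℕ) :
    q ^ N ≤ iterFil q z w j N := by
  induction j with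
  | zero => exact le_rfl
  | succ j ih => exact ih.trans (le_extFil _ _ _ _)

lemma iterFil_zero_eq_top (q : Ideal S) (z : ℕ → S) (w : ℕ → ℕ) (j : ℕ) :
    iterFil q z w j 0 = ⊤ := by
  have h := pow_le_iterFil q z w j 0
  rw [pow_zero, Ideal.one_eq_top] at h
  exact top_le_iff.mp h

lemma hasWeight_iterFil_of_mem (q : Ideal S) (z : ℕ → S) (w : ℕ → ℕ) (j : ℕ) {a : S}
    (ha : a ∈ q) : HasWeight (iterFil q z w j) a 1 := by
  induction j with
  | zero =>
    intro N x hx
    change a * x ∈ q ^ (N + 1)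
    rw [pow_succ']
    exact Ideal.mul_mem_mul ha hx
  | succ j ih => exact ih.extFil (iterFil_anti q z w j) _ _

lemma hasWeight_iterFil (q : Ideal S) (z : ℕ → S) (w : ℕ → ℕ) (j i : ℕ) (hi : i < j) :
    HasWeight (iterFil q z w j) (z i) (w i) := by
  induction j with
  | zero => omega
  | succ j ih =>
    rcases Nat.lt_succ_iff_lt_or_eq.mp hi with h | h
    · exact (ih h).extFil (iterFil_anti q z w j) _ _
    · subst h
      exact hasWeight_extFil_self _ _ _

/-- `l(S/q^N) ≤ (∏_{i<j} w i) * l(S/H_N)` for the iterated extension `H`. -/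
lemma length_quot_pow_le_prod_mul_iterFil (q : Ideal S) (z : ℕ → S) (w : ℕ → ℕ)
    (hz : ∀ i, z i ∈ q) (hw : ∀ i, 1 ≤ w i)
    (hfin : ∀ N, Module.length S (S ⧸ q ^ N) ≠ ⊤) (j N : ℕ) :
    Module.length S (S ⧸ q ^ N) ≤
      ((∏ i ∈ Finset.range j, w i : ℕ) : ℕ∞) * Module.length S (S ⧸ iterFil q z w j N) := by
  induction j with
  | zero =>
    rw [Finset.range_zero, Finset.prod_empty, Nat.cast_one, one_mul]
    exact le_rfl
  | succ j ih =>
    have h := length_quot_le_mul_extFil (iterFil_anti q z w j) (iterFil_zero_eq_top q z w j) (z j)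
      (hasWeight_iterFil_of_mem q z w j (hz j)) (w j) (hw j)
      (fun M => ne_top_of_le_ne_top (hfin M) (length_quot_anti (pow_le_iterFil q z w j M))) N
    calc Module.length S (S ⧸ q ^ N)
        ≤ ((∏ i ∈ Finset.range j, w i : ℕ) : ℕ∞) * Module.length S (S ⧸ iterFil q z w j N) := ih
      _ ≤ ((∏ i ∈ Finset.range j, w i : ℕ) : ℕ∞) *
            ((w j : ℕ∞) * Module.length S (S ⧸ extFil (iterFil q z w j) (z j) (w j) N)) := by
          gcongr
      _ = ((∏ i ∈ Finset.range (j + 1), w i : ℕ) : ℕ∞) *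
            Module.length S (S ⧸ iterFil q z w (j + 1) N) := by
          rw [Finset.prod_range_succ, ← mul_assoc]
          push_cast
          rfl

/-- If `n^(k+1) ≤ q n^k + ∑_{i<s} z_i n^(k+1-w_i)` then `n^(N+k) ≤ H_N`. -/
lemma pow_add_le_iterFil (n q : Ideal S) (z : ℕ → S) (w : ℕ → ℕ) (s k : ℕ)
    (hred : n ^ (k + 1) ≤ q * n ^ k ⊔ ⨆ i : Fin s, Ideal.span {z i} * n ^ (k + 1 - w i))
    (hw : ∀ i, 1 ≤ w i) (N : ℕ) : n ^ (N + k) ≤ iterFil q z w s N := by
  induction N using Nat.strong_induction_on with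
  | _ N ih =>
    cases N with
    | zero => rw [iterFil_zero_eq_top]; exact le_top
    | succ N =>
      have h1 : n ^ (N + 1 + k) ≤ n ^ N * (q * n ^ k ⊔
          ⨆ i : Fin s, Ideal.span {z i} * n ^ (k + 1 - w i)) := by
        have : n ^ (N + 1 + k) = n ^ N * n ^ (k + 1) := by rw [← pow_add]; congr 1; omega
        rw [this]
        exact Ideal.mul_mono_right hred
      refine h1.trans ?_
      rw [Ideal.mul_sup, Ideal.mul_iSup]
      refine sup_le ?_ (iSup_le fun i => ?_)
      · have h2 : n ^ N * (q * n ^ k) = q * n ^ (N + k) := by rw [pow_add]; ring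
        rw [h2]
        refine (Ideal.mul_mono_right (ih N (Nat.lt_succ_self N))).trans ?_
        rw [Ideal.mul_le]
        intro a ha x hx
        exact hasWeight_iterFil_of_mem q z w s ha N x hx
      · have h2 : n ^ N * (Ideal.span {z i} * n ^ (k + 1 - w i)) =
            Ideal.span {z i} * n ^ (N + (k + 1 - w i)) := by rw [pow_add]; ring
        rw [h2]
        have hwi := hw i
        have h3 : n ^ (N + (k + 1 - w i)) ≤ iterFil q z w s (N + 1 - w i) := by
          by_cases hc : N + 1 - w i = 0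
          · rw [hc, iterFil_zero_eq_top]; exact le_top
          · refine le_trans (Ideal.pow_le_pow_right ?_) (ih (N + 1 - w i) (by omega))
            omega
        refine (Ideal.mul_mono_right h3).trans ?_
        refine ((hasWeight_iff _ _ _).mp (hasWeight_iterFil q z w s i i.2) _).trans ?_
        exact iterFil_anti q z w s (by omega)

end Vale.Agent.P202
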