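import Mathlib
import Vale.Agent.P202.Decomp

/-!
The length inequality for closed fibres whose maximal ideal is a direct sum of principal ideals.
-/

open Module Submodule IsLocalRing

namespace Vale.Agent.P202

variable {R S : Type*} [CommRing R] [CommRing S] [IsLocalRing R] [IsLocalRing S]
  [Algebra R S] [IsLocalHom (algebraMap R S)]

omit [IsLocalRing S] in
lemma map_mkQ_sup_self {M : Type*} [AddCommGroup M] [Module S M] (I K : Submodule S M) :
    Submodule.map I.mkQ (I ⊔ K) = Submodule.map I.mkQ K := by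
  rw [Submodule.map_sup, Submodule.mkQ_map_self, bot_sup_eq]

omit [IsLocalRing S] in
/-- `l(S/(I : y)) = l((y) + I / I)`, with `(I : y)` realised as a kernel. -/
lemma length_quot_ker_mul (I : Ideal S) (y : S) :
    Module.length S (S ⧸ LinearMap.ker (I.mkQ ∘ₗ LinearMap.mulLeft S y)) =
      Module.length S (Submodule.map I.mkQ (Ideal.span {y})) := by
  have hr : LinearMap.range (I.mkQ ∘ₗ LinearMap.mulLeft S y) =
      Submodule.map I.mkQ (Ideal.span {y}) := by
    rw [LinearMap.range_comp]
    congr 1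
    ext x
    simp only [LinearMap.mem_range, LinearMap.mulLeft_apply]
    rw [Ideal.mem_span_singleton']
    constructor
    · rintro ⟨a, rfl⟩; exact ⟨a, mul_comm _ _⟩
    · rintro ⟨a, rfl⟩; exact ⟨a, mul_comm _ _⟩
  rw [← hr]
  exact (LinearMap.quotKerEquivRange _).length_eq

omit [IsLocalRing S] [IsLocalHom (algebraMap R S)] in
lemma length_quot_mS_ne_top [IsArtinianRing (S ⧸ mS R S)] :
    Module.length S (S ⧸ mS R S) ≠ ⊤ := by
  rwa [Module.length_eq_of_surjective (R := S ⧸ mS R S) Ideal.Quotient.mk_surjective,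
    Module.length_ne_top_iff, ← isArtinianRing_iff_isFiniteLength]

theorem length_le_length_of_supIndep [Module.Flat R S] [IsNoetherianRing R]
    [IsArtinianRing (S ⧸ mS R S)] {ι : Type*} [Fintype ι] (y : ι → S)
    (hgen : maximalIdeal S = mS R S ⊔ Ideal.span (Set.range y))
    (hind : (Finset.univ : Finset ι).SupIndep
      (fun i => Submodule.map (mS R S).mkQ (Ideal.span {y i}))) (N : ℕ) :
    Module.length R (R ⧸ maximalIdeal R ^ N) ≤ Module.length S (S ⧸ maximalIdeal S ^ N) := by
  classical
  set I := mS R S with hI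
  set n := maximalIdeal S with hn
  have hfin : Module.length S (S ⧸ I) ≠ ⊤ := length_quot_mS_ne_top
  have hIn : I ≤ n := mS_le_maximalIdeal
  have hyn : ∀ i, y i ∈ n := fun i => by
    rw [hgen]; exact Ideal.mem_sup_right (Ideal.subset_span ⟨i, rfl⟩)
  -- pairwise products
  have hmul : ∀ i j, i ≠ j → y i * y j ∈ n * I := by
    intro i j hij
    apply mul_mem_of_disjoint (R := R) (y i) (y j) (hyn i) (hyn j)
    intro u hu1 hu2
    have h1 : I.mkQ u ∈ Submodule.map I.mkQ (Ideal.span {y i}) := by
      rw [← map_mkQ_sup_self]; exact Submodule.mem_map_of_mem hu1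
    have h2 : I.mkQ u ∈ Submodule.map I.mkQ (Ideal.span {y j}) := by
      rw [← map_mkQ_sup_self]; exact Submodule.mem_map_of_mem hu2
    have hd := hind.pairwiseDisjoint (Finset.mem_coe.mpr (Finset.mem_univ i))
      (Finset.mem_coe.mpr (Finset.mem_univ j)) hij
    have h3 := (Submodule.disjoint_def.mp hd) _ h1 h2
    exact (Submodule.Quotient.mk_eq_zero I).mp h3
  have hpow := pow_le_sumPow I n y hIn hgen hmul N
  -- the numbers
  set L := Module.length R (R ⧸ maximalIdeal R ^ N) with hL
  set a := Module.length S (S ⧸ I) with ha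
  let c : ι → ℕ∞ := fun i => Module.length S (Submodule.map I.mkQ (Ideal.span {y i}))
  have hLfin : L ≠ ⊤ := length_quot_pow_ne_top N
  -- (5) 1 + ∑ c i ≤ a
  have h5 : ∑ i, c i + 1 ≤ a := by
    have h := length_quot_eq I n
    rw [sup_eq_right.mpr hIn] at h
    have h1 : Module.length S (S ⧸ n) = 1 := by
      have : IsSimpleModule S (S ⧸ n) :=
        isSimpleModule_iff_quot_maximal.mpr ⟨n, IsLocalRing.maximalIdeal.isMaximal S,
          ⟨LinearEquiv.refl _ _⟩⟩
      exact Module.length_eq_one S (S ⧸ n)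
    have h2 : Submodule.map I.mkQ n =
        Finset.univ.sup (fun i => Submodule.map I.mkQ (Ideal.span {y i})) := by
      rw [hgen, map_mkQ_sup_self, Finset.sup_univ_eq_iSup, ← Submodule.map_iSup]
      congr 1
      rw [← Set.iUnion_singleton_eq_range]
      exact Ideal.span_iUnion _
    rw [ha, h, h1, h2]
    gcongr
    exact sum_length_le_of_supIndep _ _ hind
  have hcfin : ∀ i, c i ≠ ⊤ := fun i => by
    have : c i ≤ a := by
      refine le_trans ?_ (le_trans le_self_add h5)
      exact Finset.single_le_sum (f := c) (fun _ _ => zero_le) (Finset.mem_univ i)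
    exact ne_top_of_le_ne_top hfin this
  -- (4)
  have h4 : ∀ i, Module.length S (Submodule.map (I ^ N).mkQ ((I ⊔ Ideal.span {y i}) ^ N)) ≤
      c i * L := by
    intro i
    have hle : I ^ N ≤ (I ⊔ Ideal.span {y i}) ^ N := Ideal.pow_right_mono le_sup_left N
    have h := length_quot_eq (I ^ N) ((I ⊔ Ideal.span {y i}) ^ N)
    rw [sup_eq_right.mpr hle] at h
    have ht := length_quot_mS_pow_le (R := R) (S := S) hfin (y i)
      (LinearMap.ker (I.mkQ ∘ₗ LinearMap.mulLeft S (y i))) (by
        intro w hw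
        exact (Submodule.Quotient.mk_eq_zero I).mp hw) N
    rw [length_quot_ker_mul] at ht
    have hfq : Module.length S (S ⧸ (I ⊔ Ideal.span {y i}) ^ N) ≠ ⊤ :=
      ne_top_of_le_ne_top (length_quot_mS_pow_ne_top hfin N) (length_quot_anti hle)
    rw [← ENat.add_le_add_iff_right hfq, ← h]
    rw [add_comm]
    exact ht
  -- (2), (3)
  have h2 := length_quot_eq (I ^ N) (n ^ N)
  rw [sup_eq_right.mpr (Ideal.pow_right_mono hIn N)] at h2
  have h3 : Module.length S (Submodule.map (I ^ N).mkQ (n ^ N)) ≤ ∑ i, c i * L := by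
    have hm : Submodule.map (I ^ N).mkQ (n ^ N) ≤
        Finset.univ.sup (fun i => Submodule.map (I ^ N).mkQ ((I ⊔ Ideal.span {y i}) ^ N)) := by
      refine le_trans (Submodule.map_mono hpow) ?_
      rw [sumPow, map_mkQ_sup_self, Finset.sup_univ_eq_iSup, Submodule.map_iSup]
    refine le_trans (length_mono hm) (le_trans (length_finset_sup_le _ _) ?_)
    exact Finset.sum_le_sum fun i _ => h4 i
  have h1 := length_quot_mS_pow (R := R) (S := S) N
  have hsfin : ∑ i, c i * L ≠ ⊤ := by
    rw [← Finset.sum_mul]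
    apply WithTop.mul_ne_top _ hLfin
    exact WithTop.sum_ne_top.mpr fun i _ => hcfin i
  rw [← ENat.add_le_add_iff_left hsfin]
  calc ∑ i, c i * L + L = L * (∑ i, c i + 1) := by rw [← Finset.sum_mul]; ring
    _ ≤ L * a := by gcongr
    _ = Module.length S (S ⧸ I ^ N) := h1.symm
    _ = Module.length S (Submodule.map (I ^ N).mkQ (n ^ N)) + Module.length S (S ⧸ n ^ N) := h2
    _ ≤ ∑ i, c i * L + Module.length S (S ⧸ n ^ N) := by gcongr

end Vale.Agent.P202
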