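import Mathlib
import Vale.Agent.P202.Defs
import Vale.Agent.P202.Main

/-!
Dimension equality, passage from lengths to multiplicities, and translation of the independence
hypothesis.
-/

open Module Submodule IsLocalRing

namespace Vale.Agent.P202

variable {R S : Type*} [CommRing R] [CommRing S] [IsLocalRing R] [IsLocalRing S]
  [Algebra R S] [IsLocalHom (algebraMap R S)]

theorem ringKrullDim_eq_of_isArtinianRing_fibre [Module.Flat R S] [IsNoetherianRing R]
    [IsNoetherianRing S] [IsArtinianRing (S ⧸ mS R S)] : ringKrullDim S = ringKrullDim R := by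
  have h := Ideal.height_eq_height_add_of_liesOver_of_hasGoingDown (maximalIdeal R)
    (maximalIdeal S)
  have h0 : ((maximalIdeal S).map (Ideal.Quotient.mk (mS R S))).height = 0 := by
    have hne : (maximalIdeal S).map (Ideal.Quotient.mk (mS R S)) ≠ ⊤ := by
      intro htop
      have h1 : (1 : S ⧸ mS R S) ∈ (maximalIdeal S).map (Ideal.Quotient.mk (mS R S)) := by
        rw [htop]; trivial
      obtain ⟨x, hx, hx1⟩ := (Ideal.mem_map_iff_of_surjective _
        Ideal.Quotient.mk_surjective).mp h1
      have h2 : x - 1 ∈ mS R S := by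
        rw [← Ideal.Quotient.eq, hx1, map_one]
      have h3 : (1 : S) ∈ maximalIdeal S := by
        have := Ideal.sub_mem _ hx (mS_le_maximalIdeal h2)
        simp at this
      exact (Ideal.ne_top_iff_one _).mp (IsLocalRing.maximalIdeal.isMaximal S).ne_top h3
    have h1 := Ideal.height_le_ringKrullDim_of_ne_top hne
    have h2 : ringKrullDim (S ⧸ mS R S) ≤ 0 := Ring.krullDimLE_iff.mp inferInstance
    have h3 := h1.trans h2
    have h4 : ((maximalIdeal S).map (Ideal.Quotient.mk (mS R S))).height ≤ 0 := by
      exact_mod_cast h3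
    exact nonpos_iff_eq_zero.mp h4
  rw [h0, add_zero] at h
  rw [← IsLocalRing.maximalIdeal_height_eq_ringKrullDim,
    ← IsLocalRing.maximalIdeal_height_eq_ringKrullDim, h]

omit [Algebra R S] [IsLocalHom (algebraMap R S)] in
theorem mult_le_of_length_le [IsNoetherianRing S] (hdim : ringKrullDim S = ringKrullDim R)
    (hlen : ∀ N, Module.length R (R ⧸ maximalIdeal R ^ N) ≤
      Module.length S (S ⧸ maximalIdeal S ^ N))
    (eR eS : ℝ) (hR : IsHilbertSamuelMultiplicity R eR) (hS : IsHilbertSamuelMultiplicity S eS) :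
    eR ≤ eS := by
  obtain ⟨d, hd, hlimR⟩ := hR
  obtain ⟨d', hd', hlimS⟩ := hS
  have hdd : d' = d := by
    rw [hd, hd'] at hdim
    exact_mod_cast hdim
  subst hdd
  refine le_of_tendsto_of_tendsto' hlimR hlimS fun N => ?_
  have h1 : (Module.length R (R ⧸ maximalIdeal R ^ N)).toNat ≤
      (Module.length S (S ⧸ maximalIdeal S ^ N)).toNat :=
    ENat.toNat_le_toNat (hlen N) (length_quot_pow_ne_top N)
  gcongr

omit [IsLocalRing S] in
lemma supIndep_of_iSupIndep (I : Ideal S) {ι : Type*} [Fintype ι] (y : ι → S)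
    (hind : iSupIndep fun i => (Ideal.span {y i}).map (Ideal.Quotient.mk I)) :
    (Finset.univ : Finset ι).SupIndep (fun i => Submodule.map I.mkQ (Ideal.span {y i})) := by
  classical
  have h := iSupIndep_iff_supIndep_univ.mp hind
  intro t ht i hi hit
  have hd := h ht hi hit
  rw [Submodule.disjoint_def]
  intro x hx1 hx2
  have hle : ∀ j, Submodule.map I.mkQ (Ideal.span {y j}) ≤
      ((Ideal.span {y j}).map (Ideal.Quotient.mk I)).restrictScalars S := by
    rintro j _ ⟨u, hu, rfl⟩
    exact Ideal.mem_map_of_mem (Ideal.Quotient.mk I) hu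
  have h1 : x ∈ (Ideal.span {y i}).map (Ideal.Quotient.mk I) := hle i hx1
  have h2 : x ∈ t.sup (fun j => (Ideal.span {y j}).map (Ideal.Quotient.mk I)) := by
    have h3 : t.sup (fun j => Submodule.map I.mkQ (Ideal.span {y j})) ≤
        (t.sup (fun j => (Ideal.span {y j}).map (Ideal.Quotient.mk I))).restrictScalars S :=
      Finset.sup_le fun j hj => (hle j).trans (fun z hz =>
        (Finset.le_sup (f := fun j => (Ideal.span {y j}).map (Ideal.Quotient.mk I)) hj) hz)
    exact h3 hx2
  exact (Submodule.disjoint_def.mp hd) x h1 h2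

end Vale.Agent.P202
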