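import Mathlib
import Vale.Agent.P202.Length

/-!
The filtration generated by an ideal `q` in weight one and an element `z ∈ q` in weight `w`,
and the comparison of colengths `l(S/q^N) ≤ w * l(S/F_N)`.
-/

open Module Submodule

namespace Vale.Agent.P202

variable {S : Type*} [CommRing S]

/-- The `N`-th piece of the filtration generated by `q` in weight `1` and `z` in weight `w`. -/
def wfil (q : Ideal S) (z : S) (w : ℕ) (N : ℕ) : Ideal S :=
  ⨆ i : ℕ, Ideal.span {z ^ i} * q ^ (N - w * i)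

lemma pow_le_wfil (q : Ideal S) (z : S) (w N : ℕ) : q ^ N ≤ wfil q z w N := by
  refine le_trans ?_ (le_iSup (fun i : ℕ => Ideal.span {z ^ i} * q ^ (N - w * i)) 0)
  simp

lemma wfil_le (q : Ideal S) (z : S) (w N : ℕ) :
    wfil q z w N ≤ q ^ N ⊔ Ideal.span {z} * wfil q z w (N - w) := by
  refine iSup_le fun i => ?_
  cases i with
  | zero => simp
  | succ i =>
    refine le_trans ?_ le_sup_right
    have h1 : Ideal.span {z ^ (i + 1)} * q ^ (N - w * (i + 1)) =
        Ideal.span {z} * (Ideal.span {z ^ i} * q ^ (N - w - w * i)) := by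
      rw [← mul_assoc, Ideal.span_singleton_mul_span_singleton, ← pow_succ']
      congr 2
      rw [Nat.mul_succ]
      omega
    rw [h1]
    exact Ideal.mul_mono_right
      (le_iSup (fun i : ℕ => Ideal.span {z ^ i} * q ^ (N - w - w * i)) i)

lemma wfil_anti (q : Ideal S) (z : S) (w : ℕ) {M N : ℕ} (h : M ≤ N) :
    wfil q z w N ≤ wfil q z w M := by
  refine iSup_le fun i => ?_
  refine le_trans ?_ (le_iSup (fun i : ℕ => Ideal.span {z ^ i} * q ^ (M - w * i)) i)
  exact Ideal.mul_mono_right (Ideal.pow_le_pow_right (by omega))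

/-- `l(S/q^N) ≤ ∑_{j<w} l(S/F_{N-j})`. -/
lemma length_quot_pow_le_sum_wfil (q : Ideal S) (z : S) (hz : z ∈ q) (w : ℕ) (hw : 1 ≤ w)
    (hfin : ∀ N, Module.length S (S ⧸ q ^ N) ≠ ⊤) (N : ℕ) :
    Module.length S (S ⧸ q ^ N) ≤
      ∑ j ∈ Finset.range w, Module.length S (S ⧸ wfil q z w (N - j)) := by
  induction N with
  | zero =>
    have : Subsingleton (S ⧸ q ^ 0) := by
      rw [pow_zero, Ideal.one_eq_top]
      exact Ideal.Quotient.subsingleton_iff.mpr rfl
    rw [Module.length_eq_zero]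
    exact zero_le
  | succ N ih =>
    have h1 := length_add_le_of_mul (q ^ (N + 1)) (wfil q z w (N + 1 - w)) (q ^ N) z
      (le_trans (Ideal.pow_le_pow_right (by omega)) (pow_le_wfil q z w (N + 1 - w))) (by
        intro x hx
        rw [pow_succ']
        exact Ideal.mul_mem_mul hz hx)
    have h2 : Module.length S (S ⧸ (q ^ (N + 1) ⊔ Ideal.span {z} * wfil q z w (N + 1 - w))) ≤
        Module.length S (S ⧸ wfil q z w (N + 1)) := length_quot_anti (wfil_le q z w (N + 1))
    have hfu : Module.length S (S ⧸ wfil q z w (N + 1 - w)) ≠ ⊤ :=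
      ne_top_of_le_ne_top (hfin (N + 1 - w)) (length_quot_anti (pow_le_wfil q z w (N + 1 - w)))
    have h3 : ∑ j ∈ Finset.range w, Module.length S (S ⧸ wfil q z w (N - j)) +
        Module.length S (S ⧸ wfil q z w (N + 1)) =
        ∑ j ∈ Finset.range w, Module.length S (S ⧸ wfil q z w (N + 1 - j)) +
        Module.length S (S ⧸ wfil q z w (N + 1 - w)) := by
      rw [← Finset.sum_range_succ (fun j => Module.length S (S ⧸ wfil q z w (N + 1 - j))) w,
        Finset.sum_range_succ' (fun j => Module.length S (S ⧸ wfil q z w (N + 1 - j))) w]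
      simp only [Nat.sub_zero]
      congr 1
      refine Finset.sum_congr rfl fun j _ => ?_
      rw [Nat.add_sub_add_right]
    rw [← ENat.add_le_add_iff_right hfu]
    calc Module.length S (S ⧸ q ^ (N + 1)) + Module.length S (S ⧸ wfil q z w (N + 1 - w))
        ≤ Module.length S (S ⧸ (q ^ (N + 1) ⊔ Ideal.span {z} * wfil q z w (N + 1 - w))) +
            Module.length S (S ⧸ q ^ N) := h1
      _ ≤ Module.length S (S ⧸ wfil q z w (N + 1)) +
            ∑ j ∈ Finset.range w, Module.length S (S ⧸ wfil q z w (N - j)) := by gcongr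
      _ = ∑ j ∈ Finset.range w, Module.length S (S ⧸ wfil q z w (N + 1 - j)) +
            Module.length S (S ⧸ wfil q z w (N + 1 - w)) := by rw [add_comm, h3]

/-- `l(S/q^N) ≤ w * l(S/F_N)`. -/
lemma length_quot_pow_le_mul_wfil (q : Ideal S) (z : S) (hz : z ∈ q) (w : ℕ) (hw : 1 ≤ w)
    (hfin : ∀ N, Module.length S (S ⧸ q ^ N) ≠ ⊤) (N : ℕ) :
    Module.length S (S ⧸ q ^ N) ≤ w * Module.length S (S ⧸ wfil q z w N) := by
  refine (length_quot_pow_le_sum_wfil q z hz w hw hfin N).trans ?_
  calc ∑ j ∈ Finset.range w, Module.length S (S ⧸ wfil q z w (N - j))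
      ≤ ∑ _j ∈ Finset.range w, Module.length S (S ⧸ wfil q z w N) :=
        Finset.sum_le_sum fun j _ => length_quot_anti (wfil_anti q z w (Nat.sub_le N j))
    _ = w * Module.length S (S ⧸ wfil q z w N) := by simp

/-- `(q + (y))^M ≤ ∑_j y^j q^(M-j)`. -/
lemma sup_span_pow_le_iSup (q : Ideal S) (y : S) (M : ℕ) :
    (q ⊔ Ideal.span {y}) ^ M ≤ ⨆ j : ℕ, Ideal.span {y ^ j} * q ^ (M - j) := by
  induction M with
  | zero =>
    refine le_trans ?_ (le_iSup (fun j : ℕ => Ideal.span {y ^ j} * q ^ (0 - j)) 0)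
    simp
  | succ M ih =>
    rw [pow_succ]
    refine (Ideal.mul_mono_left ih).trans ?_
    rw [Ideal.iSup_mul]
    refine iSup_le fun j => ?_
    rw [Ideal.mul_sup]
    refine sup_le ?_ ?_
    · refine le_trans ?_ (le_iSup (fun j : ℕ => Ideal.span {y ^ j} * q ^ (M + 1 - j)) j)
      rw [mul_assoc, ← pow_succ]
      exact Ideal.mul_mono_right (Ideal.pow_le_pow_right (by omega))
    · refine le_trans ?_ (le_iSup (fun j : ℕ => Ideal.span {y ^ j} * q ^ (M + 1 - j)) (j + 1))
      have : Ideal.span {y ^ j} * q ^ (M - j) * Ideal.span {y} =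
          Ideal.span {y ^ (j + 1)} * q ^ (M + 1 - (j + 1)) := by
        rw [pow_succ, ← Ideal.span_singleton_mul_span_singleton, Nat.add_sub_add_right]
        ring
      rw [this]

/-- `(q + (y))^(N + (c-1)) ≤ F_N` for the filtration with `z = y^c` in weight `c`. -/
lemma sup_span_pow_le_wfil (q : Ideal S) (y : S) (c : ℕ) (hc : 1 ≤ c) (N : ℕ) :
    (q ⊔ Ideal.span {y}) ^ (N + (c - 1)) ≤ wfil q (y ^ c) c N := by
  refine (sup_span_pow_le_iSup q y (N + (c - 1))).trans (iSup_le fun j => ?_)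
  refine le_trans ?_
    (le_iSup (fun i : ℕ => Ideal.span {(y ^ c) ^ i} * q ^ (N - c * i)) (j / c))
  have hj : j = c * (j / c) + j % c := (Nat.div_add_mod j c).symm
  have hlt : j % c < c := Nat.mod_lt j (by omega)
  refine Ideal.mul_mono ?_ (Ideal.pow_le_pow_right ?_)
  · rw [Ideal.span_singleton_le_span_singleton]
    refine ⟨y ^ (j % c), ?_⟩
    rw [← pow_mul, ← pow_add]
    congr 1
  · have h := Nat.div_add_mod j c
    generalize c * (j / c) = a at *
    omega

end Vale.Agent.P202
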