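import Mathlib
import Vale.Agent.P202.Weighted
import Vale.Agent.P202.Mult

/-!
Lech's inequality when the maximal ideal of `S` is integral over `mS + (y₁, y₂)`.
-/

open Module Submodule IsLocalRing

namespace Vale.Agent.P202

section General

variable {S : Type*} [CommRing S]

/-- A strict inclusion of ideals raises the colength by at least one. -/
lemma length_quot_add_one_le {J K : Ideal S} (hle : J ≤ K) (hne : ¬ K ≤ J) :
    Module.length S (S ⧸ K) + 1 ≤ Module.length S (S ⧸ J) := by
  have h := length_quot_eq J K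
  rw [sup_eq_right.mpr hle] at h
  rw [h, add_comm]
  gcongr
  rw [Order.one_le_iff_ne_zero, Ne, Module.length_eq_zero_iff, Submodule.subsingleton_iff_eq_bot]
  intro hbot
  apply hne
  intro x hx
  have h1 : J.mkQ x ∈ Submodule.map J.mkQ K := Submodule.mem_map_of_mem hx
  rw [hbot, Submodule.mem_bot] at h1
  exact (Submodule.Quotient.mk_eq_zero J).mp h1

/-- The nilpotency index of `y` modulo `q` is at most the colength of `q`. -/
lemma exists_index_le_length [IsLocalRing S] (q : Ideal S) (y : S) (hy : y ∈ maximalIdeal S)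
    (hq : q ≠ ⊤) (hnil : ∃ e : ℕ, y ^ e ∈ q) :
    ∃ c : ℕ, 1 ≤ c ∧ y ^ c ∈ q ∧ (c : ℕ∞) ≤ Module.length S (S ⧸ q) := by
  classical
  refine ⟨Nat.find hnil, ?_, Nat.find_spec hnil, ?_⟩
  · rw [Nat.one_le_iff_ne_zero]
    intro h0
    have h1 := Nat.find_spec hnil
    rw [h0, pow_zero] at h1
    exact hq ((Ideal.eq_top_iff_one q).mpr h1)
  · have key : ∀ j : ℕ, j ≤ Nat.find hnil →
        (j : ℕ∞) ≤ Module.length S (S ⧸ (q ⊔ Ideal.span {y ^ j})) := by
      intro j
      induction j with
      | zero => intro _; exact zero_le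
      | succ j ih =>
        intro hj
        have h1 := ih (by omega)
        have hle : q ⊔ Ideal.span {y ^ (j + 1)} ≤ q ⊔ Ideal.span {y ^ j} := by
          refine sup_le_sup_left ?_ q
          rw [Ideal.span_singleton_le_span_singleton]
          exact ⟨y, pow_succ y j⟩
        have hne : ¬ q ⊔ Ideal.span {y ^ j} ≤ q ⊔ Ideal.span {y ^ (j + 1)} := by
          intro hcon
          have h2 : y ^ j ∈ q ⊔ Ideal.span {y ^ (j + 1)} :=
            hcon (Ideal.mem_sup_right (Ideal.mem_span_singleton_self _))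
          obtain ⟨a, ha, b, hb, hab⟩ := Submodule.mem_sup.mp h2
          obtain ⟨s, rfl⟩ := Ideal.mem_span_singleton'.mp hb
          have hu : IsUnit (1 - s * y) := by
            by_contra hnu
            have h3 : 1 - s * y ∈ maximalIdeal S := (IsLocalRing.mem_maximalIdeal _).mpr hnu
            have h4 : (1 : S) ∈ maximalIdeal S := by
              have := Ideal.add_mem _ h3 (Ideal.mul_mem_left _ s hy)
              simp at this
            exact (Ideal.ne_top_iff_one _).mp (IsLocalRing.maximalIdeal.isMaximal S).ne_top h4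
          have h5 : (1 - s * y) * y ^ j ∈ q := by
            have : (1 - s * y) * y ^ j = a := by
              rw [← sub_eq_iff_eq_add.mpr hab.symm]
              ring
            rw [this]; exact ha
          have h6 : y ^ j ∈ q := (Ideal.unit_mul_mem_iff_mem q hu).mp h5
          exact Nat.find_min hnil (by omega) h6
        have h7 := length_quot_add_one_le hle hne
        calc ((j + 1 : ℕ) : ℕ∞) = (j : ℕ∞) + 1 := by push_cast; rfl
          _ ≤ Module.length S (S ⧸ (q ⊔ Ideal.span {y ^ j})) + 1 := by gcongr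
          _ ≤ _ := h7
    have h := key _ le_rfl
    rwa [sup_eq_left.mpr ((Ideal.span_singleton_le_iff_mem q).mpr (Nat.find_spec hnil))] at h

/-- If `Q` is a reduction of `n` with reduction number at most `k` then `n^(M+k) ≤ Q^M`. -/
lemma pow_add_le_pow_of_reduction (n Q : Ideal S) (k : ℕ) (hred : n ^ (k + 1) ≤ Q * n ^ k)
    (M : ℕ) : n ^ (M + k) ≤ Q ^ M := by
  induction M with
  | zero => simp
  | succ M ih =>
    calc n ^ (M + 1 + k) = n ^ M * n ^ (k + 1) := by rw [← pow_add]; congr 1; omega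
      _ ≤ n ^ M * (Q * n ^ k) := Ideal.mul_mono_right hred
      _ = Q * n ^ (M + k) := by rw [pow_add]; ring
      _ ≤ Q * Q ^ M := Ideal.mul_mono_right ih
      _ = Q ^ (M + 1) := (pow_succ' Q M).symm

end General

variable {R S : Type*} [CommRing R] [CommRing S] [IsLocalRing R] [IsLocalRing S]
  [Algebra R S] [IsLocalHom (algebraMap R S)]

/-- `l(S/(mS+(y))) l(R/m^N) ≤ l(S/(mS+(y))^N)`. -/
lemma mul_length_le_length_quot_sup_span_pow [Module.Flat R S] [IsNoetherianRing R]
    (hfin : Module.length S (S ⧸ mS R S) ≠ ⊤) (y : S) (N : ℕ) :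
    Module.length S (S ⧸ (mS R S ⊔ Ideal.span {y})) *
        Module.length R (R ⧸ maximalIdeal R ^ N) ≤
      Module.length S (S ⧸ (mS R S ⊔ Ideal.span {y}) ^ N) := by
  set I := mS R S with hI
  have ht := length_quot_mS_pow_le (R := R) (S := S) hfin y
    (LinearMap.ker (I.mkQ ∘ₗ LinearMap.mulLeft S y)) (by
      intro w hw
      exact (Submodule.Quotient.mk_eq_zero I).mp hw) N
  rw [length_quot_ker_mul, length_quot_mS_pow, length_quot_eq I (Ideal.span {y})] at ht
  set L := Module.length R (R ⧸ maximalIdeal R ^ N) with hL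
  set g := Module.length S (Submodule.map I.mkQ (Ideal.span {y})) with hg
  have hLfin : L ≠ ⊤ := length_quot_pow_ne_top N
  have hgfin : g ≠ ⊤ := by
    have h := length_quot_eq I (Ideal.span {y})
    exact ne_top_of_le_ne_top hfin (h ▸ le_self_add)
  have hgL : g * L ≠ ⊤ := WithTop.mul_ne_top hgfin hLfin
  rw [← ENat.add_le_add_iff_right hgL]
  calc Module.length S (S ⧸ (I ⊔ Ideal.span {y})) * L + g * L
      = L * (g + Module.length S (S ⧸ (I ⊔ Ideal.span {y}))) := by ring
    _ ≤ _ := ht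

theorem length_le_length_shift_of_two [Module.Flat R S] [IsNoetherianRing R]
    [IsArtinianRing (S ⧸ mS R S)] (y₁ y₂ : S) (hy₁ : y₁ ∈ maximalIdeal S)
    (hy₂ : y₂ ∈ maximalIdeal S) (k : ℕ)
    (hred : maximalIdeal S ^ (k + 1) ≤
      (mS R S ⊔ Ideal.span {y₁} ⊔ Ideal.span {y₂}) * maximalIdeal S ^ k) :
    ∃ s : ℕ, ∀ N : ℕ, Module.length R (R ⧸ maximalIdeal R ^ N) ≤
      Module.length S (S ⧸ maximalIdeal S ^ (N + s)) := by
  set I := mS R S with hI
  set n := maximalIdeal S with hn
  set q := I ⊔ Ideal.span {y₁} with hq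
  have hfin : Module.length S (S ⧸ I) ≠ ⊤ := length_quot_mS_ne_top
  have hIn : I ≤ n := mS_le_maximalIdeal
  have hqn : q ≤ n := sup_le hIn ((Ideal.span_singleton_le_iff_mem n).mpr hy₁)
  have hqtop : q ≠ ⊤ := fun h =>
    (IsLocalRing.maximalIdeal.isMaximal S).ne_top (top_le_iff.mp (h ▸ hqn))
  obtain ⟨e, he⟩ := IsLocalRing.exists_maximalIdeal_pow_le_of_isArtinianRing_quotient I
  obtain ⟨c, hc1, hcq, hcl⟩ := exists_index_le_length q y₂ hy₂ hqtop
    ⟨e, le_sup_left (a := I) (he (Ideal.pow_mem_pow hy₂ e))⟩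
  refine ⟨c - 1 + k, fun N => ?_⟩
  set L := Module.length R (R ⧸ maximalIdeal R ^ N) with hL
  have hqfin : ∀ M, Module.length S (S ⧸ q ^ M) ≠ ⊤ := fun M =>
    ne_top_of_le_ne_top (length_quot_mS_pow_ne_top hfin M)
      (length_quot_anti (Ideal.pow_right_mono le_sup_left M))
  have h1 := mul_length_le_length_quot_sup_span_pow (R := R) (S := S) hfin y₁ N
  have h2 := length_quot_pow_le_mul_wfil q (y₂ ^ c) hcq c hc1 hqfin N
  have h3 : Module.length S (S ⧸ wfil q (y₂ ^ c) c N) ≤
      Module.length S (S ⧸ n ^ (N + (c - 1 + k))) := by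
    apply length_quot_anti
    rw [← add_assoc]
    exact (pow_add_le_pow_of_reduction n (q ⊔ Ideal.span {y₂}) k hred (N + (c - 1))).trans
      (sup_span_pow_le_wfil q y₂ c hc1 N)
  have hc0 : (c : ℕ∞) ≠ 0 := by
    have : c ≠ 0 := by omega
    exact_mod_cast this
  rw [← ENat.mul_le_mul_left_iff hc0 (ENat.natCast_ne_top c)]
  calc (c : ℕ∞) * L ≤ Module.length S (S ⧸ q) * L := by gcongr
    _ ≤ Module.length S (S ⧸ q ^ N) := h1
    _ ≤ c * Module.length S (S ⧸ wfil q (y₂ ^ c) c N) := h2
    _ ≤ c * Module.length S (S ⧸ n ^ (N + (c - 1 + k))) := by gcongr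

omit [Algebra R S] [IsLocalHom (algebraMap R S)] in
theorem mult_le_of_length_le_shift [IsNoetherianRing S]
    (hdim : ringKrullDim S = ringKrullDim R) (s : ℕ)
    (hlen : ∀ N, Module.length R (R ⧸ maximalIdeal R ^ N) ≤
      Module.length S (S ⧸ maximalIdeal S ^ (N + s)))
    (eR eS : ℝ) (hR : IsHilbertSamuelMultiplicity R eR) (hS : IsHilbertSamuelMultiplicity S eS) :
    eR ≤ eS := by
  obtain ⟨d, hd, hlimR⟩ := hR
  obtain ⟨d', hd', hlimS⟩ := hS
  have hdd : d' = d := by
    rw [hd, hd'] at hdim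
    exact_mod_cast hdim
  subst hdd
  have hshift := (Filter.tendsto_add_atTop_iff_nat s).mpr hlimS
  have hratio : Filter.Tendsto (fun N : ℕ => (1 + (s : ℝ) / (N : ℝ)) ^ d') Filter.atTop
      (nhds 1) := by
    have h0 : Filter.Tendsto (fun N : ℕ => 1 + (s : ℝ) / (N : ℝ)) Filter.atTop (nhds (1 + 0)) :=
      tendsto_const_nhds.add (tendsto_const_div_atTop_nhds_zero_nat (s : ℝ))
    have h1 := h0.pow d'
    simpa using h1
  have hprod := hshift.mul hratio
  rw [mul_one] at hprod
  refine le_of_tendsto_of_tendsto hlimR hprod ?_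
  filter_upwards [Filter.eventually_ge_atTop 1] with N hN
  have hNpos : (0 : ℝ) < (N : ℝ) := by exact_mod_cast hN
  have h1 : (Module.length R (R ⧸ maximalIdeal R ^ N)).toNat ≤
      (Module.length S (S ⧸ maximalIdeal S ^ (N + s))).toNat :=
    ENat.toNat_le_toNat (hlen N) (length_quot_pow_ne_top (N + s))
  have h2 : ((Module.length R (R ⧸ maximalIdeal R ^ N)).toNat : ℝ) ≤
      ((Module.length S (S ⧸ maximalIdeal S ^ (N + s))).toNat : ℝ) := by exact_mod_cast h1
  have h3 : (1 + (s : ℝ) / (N : ℝ)) = ((N + s : ℕ) : ℝ) / (N : ℝ) := by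
    push_cast
    field_simp
  have hNs : (0 : ℝ) < ((N + s : ℕ) : ℝ) := by
    have : 0 < N + s := by omega
    exact_mod_cast this
  rw [h3, div_pow, div_mul_div_comm, mul_comm _ ((N : ℝ) ^ d'), mul_div_mul_right _ _
    (pow_pos hNs d').ne']
  gcongr

end Vale.Agent.P202
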