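import Mathlib
import Vale.Agent.P202.Filt
import Vale.Agent.P202.TwoGen

/-!
The weighted reduction theorem: if `n` is integral over the filtration generated by
`q = mS + (y)` in weight one and elements `z j ∈ q` in weights `w j`, then
`l(S/q) l(R/m^N) ≤ (∏ w j) l(S/n^(N+k))`.
-/

open Module Submodule IsLocalRing

namespace Vale.Agent.P202

variable {R S : Type*} [CommRing R] [CommRing S] [IsLocalRing R] [IsLocalRing S]
  [Algebra R S] [IsLocalHom (algebraMap R S)]

theorem mul_length_le_of_weighted_reduction [Module.Flat R S] [IsNoetherianRing R]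
    [IsArtinianRing (S ⧸ mS R S)] (y : S) {s : ℕ} (z : Fin s → S) (w : Fin s → ℕ)
    (hw : ∀ j, 1 ≤ w j) (hz : ∀ j, z j ∈ mS R S ⊔ Ideal.span {y}) (k : ℕ)
    (hred : maximalIdeal S ^ (k + 1) ≤ (mS R S ⊔ Ideal.span {y}) * maximalIdeal S ^ k ⊔
      ⨆ j, Ideal.span {z j} * maximalIdeal S ^ (k + 1 - w j)) (N : ℕ) :
    Module.length S (S ⧸ (mS R S ⊔ Ideal.span {y})) *
        Module.length R (R ⧸ maximalIdeal R ^ N) ≤
      ((∏ j, w j : ℕ) : ℕ∞) * Module.length S (S ⧸ maximalIdeal S ^ (N + k)) := by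
  set I := mS R S with hI
  set n := maximalIdeal S with hn
  set q := I ⊔ Ideal.span {y} with hq
  have hfin : Module.length S (S ⧸ I) ≠ ⊤ := length_quot_mS_ne_top
  let z' : ℕ → S := fun i => if h : i < s then z ⟨i, h⟩ else 0
  let w' : ℕ → ℕ := fun i => if h : i < s then w ⟨i, h⟩ else 1
  have hz'v : ∀ j : Fin s, z' j = z j := fun j => by simp [z']
  have hw'v : ∀ j : Fin s, w' j = w j := fun j => by simp [w']
  have hz' : ∀ i, z' i ∈ q := by
    intro i
    by_cases h : i < s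
    · simp only [z', dif_pos h]; exact hz _
    · simp only [z', dif_neg h]; exact q.zero_mem
  have hw' : ∀ i, 1 ≤ w' i := by
    intro i
    by_cases h : i < s
    · simp only [w', dif_pos h]; exact hw _
    · simp only [w', dif_neg h]; exact le_rfl
  have hred' : n ^ (k + 1) ≤ q * n ^ k ⊔
      ⨆ i : Fin s, Ideal.span {z' i} * n ^ (k + 1 - w' i) := by
    simp only [hz'v, hw'v]
    exact hred
  have hqfin : ∀ M, Module.length S (S ⧸ q ^ M) ≠ ⊤ := fun M =>
    ne_top_of_le_ne_top (length_quot_mS_pow_ne_top hfin M)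
      (length_quot_anti (Ideal.pow_right_mono le_sup_left M))
  have h1 := mul_length_le_length_quot_sup_span_pow (R := R) (S := S) hfin y N
  have h2 := length_quot_pow_le_prod_mul_iterFil q z' w' hz' hw' hqfin s N
  have h3 : Module.length S (S ⧸ iterFil q z' w' s N) ≤ Module.length S (S ⧸ n ^ (N + k)) :=
    length_quot_anti (pow_add_le_iterFil n q z' w' s k hred' hw' N)
  have hprod : ∏ i ∈ Finset.range s, w' i = ∏ j, w j := by
    rw [← Fin.prod_univ_eq_prod_range]
    exact Finset.prod_congr rfl fun j _ => hw'v j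
  rw [hprod] at h2
  calc _ ≤ Module.length S (S ⧸ q ^ N) := h1
    _ ≤ _ := h2
    _ ≤ _ := by gcongr

omit [Algebra R S] [IsLocalHom (algebraMap R S)] in
theorem mul_mult_le_of_length_le_shift [IsNoetherianRing R] [IsNoetherianRing S]
    (hdim : ringKrullDim S = ringKrullDim R) (a b s : ℕ)
    (hlen : ∀ N, (a : ℕ∞) * Module.length R (R ⧸ maximalIdeal R ^ N) ≤
      (b : ℕ∞) * Module.length S (S ⧸ maximalIdeal S ^ (N + s)))
    (eR eS : ℝ) (hR : IsHilbertSamuelMultiplicity R eR) (hS : IsHilbertSamuelMultiplicity S eS) :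
    (a : ℝ) * eR ≤ (b : ℝ) * eS := by
  obtain ⟨d, hd, hlimR⟩ := hR
  obtain ⟨d', hd', hlimS⟩ := hS
  have hdd : d' = d := by
    rw [hd, hd'] at hdim
    exact_mod_cast hdim
  subst hdd
  have hshift := (Filter.tendsto_add_atTop_iff_nat s).mpr hlimS
  have hratio : Filter.Tendsto (fun N : ℕ => (1 + (s : ℝ) / (N : ℝ)) ^ d') Filter.atTop
      (nhds 1) := by
    have h0 : Filter.Tendsto (fun N : ℕ => 1 + (s : ℝ) / (N : ℝ)) Filter.atTop (nhds (1 + 0)) :=
      tendsto_const_nhds.add (tendsto_const_div_atTop_nhds_zero_nat (s : ℝ))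
    have h1 := h0.pow d'
    simpa using h1
  have hprod := (hshift.mul hratio).const_mul (b : ℝ)
  rw [mul_one] at hprod
  refine le_of_tendsto_of_tendsto (hlimR.const_mul (a : ℝ)) hprod ?_
  filter_upwards [Filter.eventually_ge_atTop 1] with N hN
  have hNpos : (0 : ℝ) < (N : ℝ) := by exact_mod_cast hN
  obtain ⟨lR, hlR⟩ := ENat.ne_top_iff_exists.mp (length_quot_pow_ne_top (R := R) N)
  obtain ⟨lS, hlS⟩ := ENat.ne_top_iff_exists.mp (length_quot_pow_ne_top (R := S) (N + s))
  have h1 := hlen N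
  rw [← hlR, ← hlS] at h1 ⊢
  have h2 : a * lR ≤ b * lS := by exact_mod_cast h1
  have h2' : (a : ℝ) * (lR : ℝ) ≤ (b : ℝ) * (lS : ℝ) := by exact_mod_cast h2
  simp only [ENat.toNat_natCast]
  have h3 : (1 + (s : ℝ) / (N : ℝ)) = ((N + s : ℕ) : ℝ) / (N : ℝ) := by
    push_cast
    field_simp
  have hNs : (0 : ℝ) < ((N + s : ℕ) : ℝ) := by
    have : 0 < N + s := by omega
    exact_mod_cast this
  rw [h3, div_pow, div_mul_div_comm, mul_comm _ ((N : ℝ) ^ d'), mul_div_mul_right _ _
    (pow_pos hNs d').ne']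
  rw [← mul_div_assoc, ← mul_div_assoc]
  have h4 : (a : ℝ) * ((d'.factorial : ℝ) * (lR : ℝ)) ≤ (b : ℝ) * ((d'.factorial : ℝ) * (lS : ℝ)) := by
    have hf : (0 : ℝ) ≤ (d'.factorial : ℝ) := by positivity
    nlinarith [mul_le_mul_of_nonneg_left h2' hf]
  gcongr

end Vale.Agent.P202
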