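import Mathlib
import Vale.Agent.P202.Syzygy
import Vale.Agent.P202.TwoGen

/-!
Elements of `S` mapping into the socle of the closed fibre are integral over `mS`
(unless the maximal ideal of the closed fibre is principal), and the resulting extension of the
two generator theorem.
-/

open Module Submodule IsLocalRing

namespace Vale.Agent.P202

variable {R S : Type*} [CommRing R] [CommRing S] [IsLocalRing R] [IsLocalRing S]
  [Algebra R S] [IsLocalHom (algebraMap R S)]

omit [IsLocalHom (algebraMap R S)] in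
/-- If `σ n ≤ mS` then either `n = mS + (y)` for some `y ∈ n`, or `σ n ≤ n mS`. -/
lemma socle_mul_le_or [Module.Flat R S] [IsNoetherianRing R] (σ : Ideal S)
    (hσ : σ * maximalIdeal S ≤ mS R S) :
    (∃ y ∈ maximalIdeal S, maximalIdeal S ≤ mS R S ⊔ Ideal.span {y}) ∨
      σ * maximalIdeal S ≤ maximalIdeal S * mS R S := by
  by_cases h : σ * maximalIdeal S ≤ maximalIdeal S * mS R S
  · exact Or.inr h
  · left
    rw [Ideal.mul_le] at h
    push Not at h
    obtain ⟨s, hs, y, hy, hsy⟩ := h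
    refine ⟨y, hy, fun w hw => ?_⟩
    refine mem_sup_span_of_mul_mem (R := R) (s * y) w y (hσ (Ideal.mul_mem_mul hs hy)) hsy ?_
    have h1 : w * (s * y) = y * (s * w) := by ring
    rw [h1]
    exact Ideal.mul_mem_mul (Ideal.mem_span_singleton_self y) (hσ (Ideal.mul_mem_mul hs hw))

theorem length_le_length_shift_of_two_socle [Module.Flat R S] [IsNoetherianRing R]
    [IsArtinianRing (S ⧸ mS R S)] (y₁ y₂ : S) (hy₁ : y₁ ∈ maximalIdeal S)
    (hy₂ : y₂ ∈ maximalIdeal S) (σ : Ideal S) (hσ : σ * maximalIdeal S ≤ mS R S) (k : ℕ)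
    (hred : maximalIdeal S ^ (k + 1) ≤
      (mS R S ⊔ Ideal.span {y₁} ⊔ Ideal.span {y₂} ⊔ σ) * maximalIdeal S ^ k) :
    ∃ s : ℕ, ∀ N : ℕ, Module.length R (R ⧸ maximalIdeal R ^ N) ≤
      Module.length S (S ⧸ maximalIdeal S ^ (N + s)) := by
  rcases socle_mul_le_or (R := R) σ hσ with ⟨y, hy, hn⟩ | h
  · refine length_le_length_shift_of_two (R := R) y 0 hy (Ideal.zero_mem _) 0 ?_
    rw [pow_zero, Ideal.one_eq_top, Ideal.mul_top, zero_add, pow_one]
    exact hn.trans le_sup_left
  · refine length_le_length_shift_of_two (R := R) y₁ y₂ hy₁ hy₂ (k + 1) ?_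
    set n := maximalIdeal S with hn
    set Q := mS R S ⊔ Ideal.span {y₁} ⊔ Ideal.span {y₂} with hQ
    calc n ^ (k + 1 + 1) = n ^ (k + 1) * n := pow_succ _ _
      _ ≤ (Q ⊔ σ) * n ^ k * n := Ideal.mul_mono_left hred
      _ = Q * n ^ (k + 1) ⊔ σ * n * n ^ k := by
          rw [Ideal.sup_mul, Ideal.sup_mul, pow_succ]
          congr 1
          · ring
          · ring
      _ ≤ Q * n ^ (k + 1) ⊔ n * mS R S * n ^ k := by gcongr
      _ ≤ Q * n ^ (k + 1) := by
          refine sup_le le_rfl ?_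
          have h2 : n * mS R S * n ^ k = mS R S * n ^ (k + 1) := by rw [pow_succ]; ring
          rw [h2]
          exact Ideal.mul_mono_left (le_sup_left.trans le_sup_left)

end Vale.Agent.P202
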